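import Mathlib
import Vale.Agent.P037.Far

namespace Vale.Agent.Results.P037.NoPolyRemoval

/-- The number of ordered copies of the binary `k × k` pattern `H` in the binary `n × n`
matrix `A`: strictly increasing row and column choices matching all entries. -/
noncomputable def copies {k n : ℕ} (H : Fin k → Fin k → Bool) (A : Fin n → Fin n → Bool) : ℕ :=
  Set.ncard {p : (Fin k → Fin n) × (Fin k → Fin n) |
    StrictMono p.1 ∧ StrictMono p.2 ∧ ∀ i j, A (p.1 i) (p.2 j) = H i j}

/-- The number of entries in which two binary matrices differ. -/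
noncomputable def diff {n : ℕ} (A B : Fin n → Fin n → Bool) : ℕ :=
  Set.ncard {e : Fin n × Fin n | A e.1 e.2 ≠ B e.1 e.2}

/-- The normalised distance of `A` from being `H`-free. -/
noncomputable def distFree {k n : ℕ} (H : Fin k → Fin k → Bool) (A : Fin n → Fin n → Bool) : ℝ :=
  ((sInf {d : ℕ | ∃ B : Fin n → Fin n → Bool, copies H B = 0 ∧ d = diff A B} : ℕ) : ℝ) /
    (n : ℝ) ^ 2

open Vale.Agent.P037

lemma exists_equiv {Y L : Type} [Fintype Y] [LinearOrder L] (key : Y → L)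
    (hk : Function.Injective key) {n : ℕ} (hn : Fintype.card Y = n) :
    ∃ e : Fin n ≃ Y, ∀ i j, i < j ↔ key (e i) < key (e j) := by
  let _ : LinearOrder Y := LinearOrder.lift' key hk
  let e := monoEquivOfFin Y hn
  exact ⟨e.toEquiv, fun i j => (e.lt_iff_lt (x := i) (y := j)).symm⟩

lemma cardX (h : ℕ) : Fintype.card (X h) = (20 * h + 52) * 2 ^ h := by
  simp only [Fintype.card_prod, Fintype.card_sum, Fintype.card_fin]; ring

lemma main (h : ℕ) (hh : 1 ≤ h) (n : ℕ) (hn : n = (20 * h + 52) * 2 ^ h) :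
    ∃ A : Fin n → Fin n → Bool, copies H A ≤ n ^ 71 ∧
      (∀ B : Fin n → Fin n → Bool, copies H B = 0 → 2 ^ h * 2 ^ h ≤ diff A B) := by
  classical
  obtain ⟨eR, hR⟩ := exists_equiv (keyR (h := h)) keyR_inj ((cardX h).trans hn.symm)
  obtain ⟨eC, hC⟩ := exists_equiv (keyC (h := h)) keyC_inj ((cardX h).trans hn.symm)
  refine ⟨fun i j => decide (ent (eR i) (eC j)), ?_, ?_⟩
  · unfold copies
    have key : ∀ p ∈ {p : (Fin 36 → Fin n) × (Fin 36 → Fin n) |
        StrictMono p.1 ∧ StrictMono p.2 ∧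
          ∀ i j, decide (ent (eR (p.1 i)) (eC (p.2 j))) = H i j},
        p.2 34 = eC.symm (.inr (.inr ⟨h, by omega⟩), (eR (p.1 35)).2) := by
      rintro ⟨f, g⟩ ⟨hf, hg, hA⟩
      have := rare (h := h) (f := fun i => eR (f i)) (g := fun i => eC (g i)) hh
        (fun i j hij => (hR _ _).1 (hf hij)) (fun i j hij => (hC _ _).1 (hg hij))
        (fun i j => by rw [← hA]; simp)
      rw [← this]; simp
    have := Set.ncard_le_ncard_of_injOn
      (t := (Set.univ : Set ((Fin 36 → Fin n) × (Fin 35 → Fin n))))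
      (fun p => (p.1, fun i => p.2 ((34 : Fin 36).succAbove i)))
      (fun p (_ : p ∈ {p : (Fin 36 → Fin n) × (Fin 36 → Fin n) |
        StrictMono p.1 ∧ StrictMono p.2 ∧
          ∀ i j, decide (ent (eR (p.1 i)) (eC (p.2 j))) = H i j}) => Set.mem_univ _) ?_
    · refine this.trans ?_
      rw [Set.ncard_univ, Nat.card_eq_fintype_card]
      simp only [Fintype.card_prod, Fintype.card_fun, Fintype.card_fin]
      rw [← pow_add]
    · intro p hp q hq he
      simp only [Prod.mk.injEq] at he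
      refine Prod.ext he.1 (funext fun i => ?_)
      refine Fin.succAboveCases (34 : Fin 36) ?_ (fun i => congrFun he.2 i) i
      rw [key p hp, key q hq, he.1]
  · intro B hB
    by_contra hlt
    push Not at hlt
    have hD : (Finset.univ.filter fun e : X h × X h =>
        ¬ (ent e.1 e.2 ↔ B (eR.symm e.1) (eC.symm e.2) = true)).card < 2 ^ h * 2 ^ h := by
      refine lt_of_le_of_lt ?_ hlt
      unfold diff
      rw [Set.ncard_eq_toFinset_card']
      apply Finset.card_le_card_of_injOn (fun e => (eR.symm e.1, eC.symm e.2))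
      · intro e he
        simp only [Finset.coe_filter, Finset.mem_univ, true_and, Set.mem_ofPred_eq] at he
        simp only [Set.coe_toFinset, Set.mem_ofPred_eq, Equiv.apply_symm_apply]
        intro h2
        apply he
        rw [← h2]; simp
      · intro e _ e' _ he
        simp only [Prod.mk.injEq, EmbeddingLike.apply_eq_iff_eq] at he
        exact Prod.ext he.1 he.2
    obtain ⟨t, ht⟩ := avg (fun r c => B (eR.symm r) (eC.symm c) = true) (by convert hD)
    obtain ⟨f, g, hf, hg, hA⟩ := far (B := fun r c => B (eR.symm r) (eC.symm c) = true) hh ht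
    unfold copies at hB
    rw [Set.ncard_eq_zero] at hB
    have : (fun i => eR.symm (f i), fun i => eC.symm (g i)) ∈
        {p : (Fin 36 → Fin n) × (Fin 36 → Fin n) |
          StrictMono p.1 ∧ StrictMono p.2 ∧ ∀ i j, B (p.1 i) (p.2 j) = H i j} := by
      refine ⟨fun i j hij => (hR _ _).2 ?_, fun i j hij => (hC _ _).2 ?_, fun i j => ?_⟩
      · simpa using hf i j hij
      · simpa using hg i j hij
      · exact Bool.eq_iff_iff.2 (hA i j)
    rw [hB] at this
    exact this

lemma exists_h (c C : ℝ) (hc : 0 < c) :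
    ∃ h : ℕ, 1 ≤ h ∧ ((20 * h + 52 : ℝ) ^ 2) ^ C < c * 2 ^ h := by
  obtain ⟨D, hD⟩ := exists_nat_ge C
  have ht := tendsto_pow_const_div_const_pow_of_one_lt (2 * D) (r := 2) (by norm_num)
  have hpos : 0 < c / 72 ^ (2 * D) := by positivity
  obtain ⟨h, h1, h2⟩ := ((ht.eventually (gt_mem_nhds hpos)).and (Filter.eventually_ge_atTop 1)).exists
  refine ⟨h, h2, ?_⟩
  have h3 : (1 : ℝ) ≤ h := by exact_mod_cast h2
  have h4 : ((20 * h + 52 : ℝ) ^ 2) ^ C ≤ ((20 * h + 52 : ℝ) ^ 2) ^ (D : ℝ) :=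
    Real.rpow_le_rpow_of_exponent_le (by nlinarith) hD
  rw [Real.rpow_natCast, ← pow_mul] at h4
  have h5 : (20 * h + 52 : ℝ) ^ (2 * D) ≤ (72 * h) ^ (2 * D) :=
    pow_le_pow_left₀ (by positivity) (by linarith) _
  rw [div_lt_div_iff₀ (by positivity) (by positivity)] at h1
  rw [mul_pow] at h5
  linarith

theorem result : ∃ (k : ℕ) (H : Fin k → Fin k → Bool), 0 < k ∧
    ∀ c C : ℝ, 0 < c → 0 < C →
      ∃ (n : ℕ) (ε : ℝ) (A : Fin n → Fin n → Bool), 1 ≤ n ∧ 0 < ε ∧ ε < 1 ∧
        ε ≤ distFree H A ∧ (copies H A : ℝ) < c * ε ^ C * (n : ℝ) ^ (2 * k) := by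
  refine ⟨36, H, by norm_num, fun c C hc _ => ?_⟩
  obtain ⟨h, hh, hlt⟩ := exists_h c C hc
  obtain ⟨A, hA1, hA2⟩ := main h hh _ rfl
  have hG : (1 : ℝ) < (20 * h + 52 : ℝ) ^ 2 := by
    have : (0 : ℝ) ≤ h := by positivity
    nlinarith
  have hn1 : 1 ≤ (20 * h + 52) * 2 ^ h := Nat.succ_le_of_lt (by positivity)
  refine ⟨_, ((20 * h + 52 : ℝ) ^ 2)⁻¹, A, hn1, by positivity, inv_lt_one_of_one_lt₀ hG, ?_, ?_⟩
  · unfold distFree
    have hne : {d : ℕ | ∃ B : Fin ((20 * h + 52) * 2 ^ h) → Fin ((20 * h + 52) * 2 ^ h) → Bool,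
        copies H B = 0 ∧ d = diff A B}.Nonempty := by
      refine ⟨_, fun _ _ => false, ?_, rfl⟩
      unfold copies
      rw [Set.ncard_eq_zero, Set.eq_empty_iff_forall_notMem]
      rintro p ⟨_, _, hp⟩
      have h0 : false = H 0 0 := hp 0 0
      exact absurd h0 (by decide)
    obtain ⟨B, hB, hd⟩ := Nat.sInf_mem hne
    rw [hd, le_div_iff₀ (by positivity)]
    have := hA2 B hB
    have h2 : ((2 : ℝ) ^ h * 2 ^ h) ≤ diff A B := by exact_mod_cast this
    refine le_trans (le_of_eq ?_) h2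
    push_cast
    field_simp
  · have hn2 : (2 : ℝ) ^ h ≤ ((20 * h + 52) * 2 ^ h : ℕ) := by
      have : 2 ^ h ≤ (20 * h + 52) * 2 ^ h := Nat.le_mul_of_pos_left _ (by positivity)
      exact_mod_cast this
    generalize copies H A = q at hA1 ⊢
    clear hA2 A
    generalize (20 * h + 52) * 2 ^ h = n at *
    have h1 : (q : ℝ) ≤ (n : ℝ) ^ 71 := by exact_mod_cast hA1
    refine h1.trans_lt ?_
    have hn0 : (0 : ℝ) < n := by exact_mod_cast hn1
    have hp : 0 < ((20 * h + 52 : ℝ) ^ 2) ^ C := by positivity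
    rw [Real.inv_rpow (by positivity), show 2 * 36 = 71 + 1 from rfl, pow_succ]
    have h3 : 1 < c * (((20 * h + 52 : ℝ) ^ 2) ^ C)⁻¹ * n := by
      rw [mul_right_comm, ← div_eq_mul_inv, one_lt_div hp]
      exact hlt.trans_le (by gcongr)
    have h4 : (0 : ℝ) < (n : ℝ) ^ 71 := by positivity
    calc (n : ℝ) ^ 71 = (n : ℝ) ^ 71 * 1 := (mul_one _).symm
      _ < (n : ℝ) ^ 71 * (c * (((20 * h + 52 : ℝ) ^ 2) ^ C)⁻¹ * n) := by gcongr
      _ = _ := by ring

end Vale.Agent.Results.P037.NoPolyRemoval
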